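import Vale.Agent.P216.Small

namespace Vale.Agent.Results.P216.BothCriteria

universe u

/-- Two group-theoretic obstructions to `every element of G is conjugate to an integer power of one
of finitely many elements` (a property of the fundamental group of a closed Riemannian manifold
with only finitely many geometrically distinct closed geodesics).
(1) If a finite-index subgroup `H` of `G` maps onto the integers by `φ` and has a finite-index
subgroup `K` not containing the kernel of `φ`, then for every finite `S` some element of `G` is not
conjugate to any integer power of any element of `S`.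
(2) If `G` is residually finite and has the property, then every epimorphism from a finite-index
subgroup of `G` onto the integers is an isomorphism. -/
theorem result :
    (∀ (G : Type u) [Group G] (H : Subgroup G) [H.FiniteIndex]
      (φ : H →* Multiplicative ℤ), Function.Surjective φ →
      ∀ (K : Subgroup H) [K.FiniteIndex], ¬ φ.ker ≤ K →
      ∀ S : Finset G, ∃ g : G, ∀ s ∈ S, ∀ n : ℤ, ¬ IsConj g (s ^ n)) ∧
    (∀ (G : Type u) [Group G] [Group.ResiduallyFinite G] (S : Finset G),
      (∀ g : G, ∃ s ∈ S, ∃ n : ℤ, IsConj g (s ^ n)) →
      ∀ (H : Subgroup G) [H.FiniteIndex] (φ : H →* Multiplicative ℤ),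
        Function.Surjective φ → Function.Bijective φ) :=
  ⟨fun _ _ H _ φ hφ K _ hK S => Vale.Agent.P216.main H φ hφ K hK S,
   fun _ _ _ S hS H _ φ hφ => Vale.Agent.P216.main_rf S hS H φ hφ⟩

end Vale.Agent.Results.P216.BothCriteria
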