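import Vale.Agent.P216.Small

namespace Vale.Agent.Results.P216.FiniteQuotientCriterion

/-- Let `G` be any group (think of the fundamental group of a closed manifold), `H` a subgroup of
finite index with an epimorphism `φ` onto the integers, and `K` a subgroup of finite index in `H`
that does not contain the kernel of `φ`.  Then for every finite subset `S` of `G` some element of
`G` is not conjugate to any integer power of any element of `S`. -/
theorem result {G : Type*} [Group G] (H : Subgroup G) [H.FiniteIndex]
    (φ : H →* Multiplicative ℤ) (hφ : Function.Surjective φ) (K : Subgroup H) [K.FiniteIndex]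
    (hK : ¬ φ.ker ≤ K) (S : Finset G) :
    ∃ g : G, ∀ s ∈ S, ∀ n : ℤ, ¬ IsConj g (s ^ n) :=
  Vale.Agent.P216.main H φ hφ K hK S

end Vale.Agent.Results.P216.FiniteQuotientCriterion
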