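import Vale.Agent.P216.Small

namespace Vale.Agent.Results.P216.ResiduallyFiniteCase

/-- Let `G` be a residually finite group in which every element is conjugate to an integer power of
one of finitely many elements (this holds for the fundamental group of a closed Riemannian manifold
with only finitely many geometrically distinct closed geodesics).  Then every epimorphism from a
finite-index subgroup `H` of `G` onto the integers is an isomorphism. -/
theorem result {G : Type*} [Group G] [Group.ResiduallyFinite G] (S : Finset G)
    (hS : ∀ g : G, ∃ s ∈ S, ∃ n : ℤ, IsConj g (s ^ n))
    (H : Subgroup G) [H.FiniteIndex] (φ : H →* Multiplicative ℤ) (hφ : Function.Surjective φ) :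
    Function.Bijective φ :=
  Vale.Agent.P216.main_rf S hS H φ hφ

end Vale.Agent.Results.P216.ResiduallyFiniteCase
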